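import Vale.Agent.P181.Defs
import Vale.Agent.P181.Main

namespace Vale.Agent.Results.P181.Quadratic

open Vale.Agent.P181

universe u

/-- The canonical Foulkes-Howe map `Sym^a (Sym^b V) → Sym^b (Sym^a V)` is an injective
`GL(V)`-equivariant linear map whenever `b ≥ (a - 1) ^ 2`. -/
theorem result (V : ModuleCat.{u} ℂ) [FiniteDimensional ℂ V]
    (a b : ℕ) (ha : 1 ≤ a) (hb : (a - 1) ^ 2 ≤ b) :
    ∃ Ψ : SymP a (SymP b V) →ₗ[ℂ] SymP b (SymP a V),
      IsFoulkesHowe a b V Ψ ∧ Function.Injective Ψ ∧ IsEquivariant a b V Ψ := by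
  obtain ⟨Ψ, hΨ⟩ := exists_psi (V := V) a b
  exact ⟨Ψ, hΨ, psi_inj Ψ hΨ (core a _ _ b hb),
    fun g x => DFunLike.congr_fun (psi_equivariant Ψ hΨ g.toLinearMap) x⟩

end Vale.Agent.Results.P181.Quadratic
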